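import Mathlib
import Vale.Agent.H74.DiscUniformization
import Vale.Agent.H74.ProductDomain
import Vale.Agent.H74.CocompactCore

/-!
# P274 (Kollár–Pardon, bounded-domain question Q2): the three results of this folder in one
statement

A subset of `ℂ` is semialgebraic if it belongs to the Boolean algebra of subsets of `ℂ` generated
by the sets `{z | 0 < P (re z, im z)}`, `P` a real polynomial in two variables.  A group of
biholomorphisms of a set `U` is a subgroup `Γ` of the permutations of `U` all of whose elements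
are restrictions of maps that are complex differentiable on `U`; it is cocompact if the orbit
space `U/Γ` is compact.

1. Dimension one (`A_DimensionOne`): a bounded connected open semialgebraic subset of `ℂ` with a
   cocompact group of biholomorphisms is biholomorphic to the unit disc.
2. Products (`B_ProductDomains`): a product `U 0 × ⋯ × U (N-1) ⊆ ℂ^N` of bounded connected open
   semialgebraic subsets of `ℂ` with a cocompact group of biholomorphisms (not assumed to respect
   the product structure) is biholomorphic to the unit polydisc.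
3. Rigidity (`A_FiniteConjugatesTrivial`): for a bounded connected open subset `U` of `ℂ^N` with
   a cocompact group `Γ` of biholomorphisms, a holomorphic self-map of `U` with only finitely
   many `Γ`-conjugates is the identity.

The proofs are in `Vale/Agent/H74/`.
-/

namespace Vale.Agent.Results.P274.A0_CombinedResults

theorem result :
    (∀ U : Set ℂ, IsOpen U → IsConnected U → Bornology.IsBounded U →
      U ∈ BooleanSubalgebra.closure
        (Set.range fun P : MvPolynomial (Fin 2) ℝ =>
          {z : ℂ | 0 < MvPolynomial.eval ![z.re, z.im] P}) →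
      ∀ Γ : Subgroup (Equiv.Perm U),
        (∀ γ ∈ Γ, ∃ G : ℂ → ℂ, DifferentiableOn ℂ G U ∧ ∀ x : U, G x = γ x) →
        CompactSpace (MulAction.orbitRel.Quotient Γ U) →
        ∃ f : ℂ → ℂ, DifferentiableOn ℂ f U ∧ Set.InjOn f U ∧ f '' U = Metric.ball 0 1) ∧
    (∀ (N : ℕ) (U : Fin N → Set ℂ),
      (∀ i, IsOpen (U i)) → (∀ i, IsConnected (U i)) → (∀ i, Bornology.IsBounded (U i)) →
      (∀ i, U i ∈ BooleanSubalgebra.closure
        (Set.range fun P : MvPolynomial (Fin 2) ℝ =>
          {z : ℂ | 0 < MvPolynomial.eval ![z.re, z.im] P})) →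
      ∀ Γ : Subgroup (Equiv.Perm (Set.univ.pi U)),
        (∀ γ ∈ Γ, ∃ G : (Fin N → ℂ) → (Fin N → ℂ),
          DifferentiableOn ℂ G (Set.univ.pi U) ∧ ∀ x : Set.univ.pi U, G x = γ x) →
        CompactSpace (MulAction.orbitRel.Quotient Γ (Set.univ.pi U)) →
        ∃ f : (Fin N → ℂ) → (Fin N → ℂ), DifferentiableOn ℂ f (Set.univ.pi U) ∧
          Set.InjOn f (Set.univ.pi U) ∧
          f '' (Set.univ.pi U) = Set.univ.pi fun _ : Fin N => Metric.ball (0 : ℂ) 1) ∧
    (∀ (N : ℕ) (U : Set (EuclideanSpace ℂ (Fin N))),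
      IsOpen U → IsConnected U → Bornology.IsBounded U →
      ∀ Γ : Subgroup (Equiv.Perm U),
        (∀ γ ∈ Γ, ∃ F : EuclideanSpace ℂ (Fin N) → EuclideanSpace ℂ (Fin N),
          DifferentiableOn ℂ F U ∧ ∀ x : U, F x = γ x) →
        CompactSpace (MulAction.orbitRel.Quotient Γ U) →
        ∀ φ : U → U,
          (∃ F : EuclideanSpace ℂ (Fin N) → EuclideanSpace ℂ (Fin N),
            DifferentiableOn ℂ F U ∧ ∀ x : U, F x = φ x) →
          {ψ : U → U | ∃ γ ∈ Γ, ψ = fun x => (γ⁻¹ : Equiv.Perm U) (φ (γ x))}.Finite →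
          φ = id) := by
  refine ⟨?_, ?_, ?_⟩
  · intro U h1 h2 h3 h4 Γ h5 h6
    exact Vale.Agent.H74.disc_of_cocompact_semialgebraic U h1 h2 h3 h4 Γ h5
  · intro N U h1 h2 h3 h4 Γ h5 h6
    exact Vale.Agent.H74.polydisc_of_cocompact_semialgebraic_product N U h1 h2 h3 h4 Γ h5
  · intro N U h1 h2 h3 Γ h4 h5 φ h6 h7
    exact Vale.Agent.H74.eq_id_of_finite_conj h1 h2 h3 Γ h4 φ h6 h7

end Vale.Agent.Results.P274.A0_CombinedResults
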