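import Mathlib
import Vale.Agent.H74.DiscUniformization

/-!
# P274 (Kollar-Pardon, bounded-domain question Q2) in complex dimension one

Let `U` be a nonempty bounded connected open subset of `ℂ` which is semialgebraic, i.e. belongs
to the Boolean algebra of subsets of `ℂ` generated by the sets `{z | 0 < P (Re z, Im z)}` with
`P` a real polynomial in two variables. Let `Γ` be a group of biholomorphisms of `U` (a subgroup
of the permutations of `U` all of whose elements are holomorphic) such that the orbit space
`U/Γ` is compact. Then `U` is biholomorphic to the open unit disc: there is an injective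
holomorphic map `f` on `U` with `f '' U` equal to the unit disc.

The proof (in `Vale/Agent/H74/`) has three parts: the Riemann mapping theorem
(`RiemannMap.lean`), a local description of `U` near a suitable boundary point as one side of a
graph (`PlaneLocal.lean`, `SemialgFrontier.lean`), and an orbit accumulation argument which
moves every loop of `U` into that simply connected piece (`DiscUniformization.lean`).
-/

namespace Vale.Agent.Results.P274.A_DimensionOne

theorem result (U : Set ℂ)
    (hU_open : IsOpen U) (hU_conn : IsConnected U) (hU_bdd : Bornology.IsBounded U)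
    (hU_semialg : U ∈ BooleanSubalgebra.closure
      (Set.range fun P : MvPolynomial (Fin 2) ℝ =>
        {z : ℂ | 0 < MvPolynomial.eval ![z.re, z.im] P}))
    (Γ : Subgroup (Equiv.Perm U))
    (hΓ_hol : ∀ γ ∈ Γ, ∃ G : ℂ → ℂ, DifferentiableOn ℂ G U ∧ ∀ x : U, G x = γ x)
    (hΓ_cocompact : CompactSpace (MulAction.orbitRel.Quotient Γ U)) :
    ∃ f : ℂ → ℂ, DifferentiableOn ℂ f U ∧ Set.InjOn f U ∧ f '' U = Metric.ball 0 1 :=
  Vale.Agent.H74.disc_of_cocompact_semialgebraic U hU_open hU_conn hU_bdd hU_semialg Γ hΓ_hol

end Vale.Agent.Results.P274.A_DimensionOne
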