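import Mathlib
import Vale.Agent.H74.CocompactCore

/-!
# P274 (Kollar-Pardon, bounded-domain question Q2): rigidity of cocompact groups

Let `U` be a bounded connected open subset of `ℂ^N` and let `Γ` be a group of biholomorphisms
of `U` (a subgroup of the permutations of `U` all of whose elements are holomorphic) such that
the orbit space `U/Γ` is compact. Then every holomorphic self-map `φ` of `U` which has only
finitely many conjugates `γ⁻¹ ∘ φ ∘ γ`, `γ ∈ Γ`, is the identity.

In particular (take `φ ∈ Γ`) every non-identity element of `Γ` has infinitely many conjugates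
in `Γ`: the group `Γ` has trivial centre, no non-trivial finite normal subgroup, and the
centraliser in the holomorphic self-maps of `U` of any finite-index subgroup of `Γ` is trivial.
-/

namespace Vale.Agent.Results.P274.A_FiniteConjugatesTrivial

theorem result (N : ℕ) (U : Set (EuclideanSpace ℂ (Fin N)))
    (hU_open : IsOpen U) (hU_conn : IsConnected U) (hU_bdd : Bornology.IsBounded U)
    (Γ : Subgroup (Equiv.Perm U))
    (hΓ_hol : ∀ γ ∈ Γ, ∃ F : EuclideanSpace ℂ (Fin N) → EuclideanSpace ℂ (Fin N),
      DifferentiableOn ℂ F U ∧ ∀ x : U, F x = γ x)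
    (hΓ_cocompact : CompactSpace (MulAction.orbitRel.Quotient Γ U))
    (φ : U → U)
    (hφ_hol : ∃ F : EuclideanSpace ℂ (Fin N) → EuclideanSpace ℂ (Fin N),
      DifferentiableOn ℂ F U ∧ ∀ x : U, F x = φ x)
    (hφ_fin : {ψ : U → U | ∃ γ ∈ Γ, ψ = fun x => (γ⁻¹ : Equiv.Perm U) (φ (γ x))}.Finite) :
    φ = id :=
  Vale.Agent.H74.eq_id_of_finite_conj hU_open hU_conn hU_bdd Γ hΓ_hol φ hφ_hol hφ_fin

end Vale.Agent.Results.P274.A_FiniteConjugatesTrivial
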