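import Vale.Agent.H74.ProductDomain

/-!
# P274 (Kollár–Pardon, bounded-domain question Q2): products of plane domains

Let `U = U 0 × ⋯ × U (N-1) ⊆ ℂ^N` be a product of bounded connected open semialgebraic subsets
of `ℂ` (each `U i` belongs to the Boolean algebra generated by the sets
`{z | 0 < P (re z, im z)}`, `P` a real polynomial in two variables).  If a group `Γ` of
biholomorphisms of `U` (not assumed to respect the product structure) has compact orbit space,
then `U` is biholomorphic to the unit polydisc, a bounded symmetric domain.

The proof (in `Vale.Agent.H74.ProductDomain`) moves an arbitrary loop of `U` by an element of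
`Γ` into a small neighbourhood of a boundary point all of whose coordinates are boundary points
of the factors with a simply connected local structure; the limit of the orbit maps is constant
there by the open mapping theorem applied coordinatewise.  Hence `U` and all its factors are
simply connected, and the Riemann mapping theorem applies to each factor.
-/

theorem Vale.Agent.Results.P274.B_ProductDomains.result
    (N : ℕ) (U : Fin N → Set ℂ)
    (hUo : ∀ i, IsOpen (U i)) (hUc : ∀ i, IsConnected (U i))
    (hUb : ∀ i, Bornology.IsBounded (U i))
    (hUs : ∀ i, U i ∈ BooleanSubalgebra.closure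
      (Set.range fun P : MvPolynomial (Fin 2) ℝ =>
        {z : ℂ | 0 < MvPolynomial.eval ![z.re, z.im] P}))
    (Γ : Subgroup (Equiv.Perm (Set.univ.pi U)))
    (hol : ∀ γ ∈ Γ, ∃ G : (Fin N → ℂ) → (Fin N → ℂ),
      DifferentiableOn ℂ G (Set.univ.pi U) ∧ ∀ x : Set.univ.pi U, G x = γ x)
    [CompactSpace (MulAction.orbitRel.Quotient Γ (Set.univ.pi U))] :
    ∃ f : (Fin N → ℂ) → (Fin N → ℂ), DifferentiableOn ℂ f (Set.univ.pi U) ∧
      Set.InjOn f (Set.univ.pi U) ∧
      f '' (Set.univ.pi U) = Set.univ.pi fun _ : Fin N => Metric.ball (0 : ℂ) 1 :=
  Vale.Agent.H74.polydisc_of_cocompact_semialgebraic_product N U hUo hUc hUb hUs Γ hol
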